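import Vale.Agent.P183.H996.Dual
import Mathlib.RingTheory.Ideal.Operations
import Mathlib.RingTheory.Ideal.Maps
import Mathlib.Data.ZMod.Units
import Mathlib.NumberTheory.Padics.PadicVal.Basic
import Mathlib.Algebra.Field.ZMod

/-!
Intervals of group intervals; nets of ideals over a field are preorders, nets of ideals over
`Z/p^k` are the distance functions with values in `{0, ..., k}` (helper21, corollaries for
`P183.MatrixSubrings`).
-/

set_option linter.all false

namespace Vale.Agent.P183.H21

open Vale.Agent.P183 Vale.Agent.P183.H996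

/-- An interval of a group interval is a group interval. -/
theorem GroupInterval.icc {L : Type} [PartialOrder L] (h : GroupInterval L) {a b : L}
    (hab : a ≤ b) : GroupInterval (Set.Icc a b) := by
  obtain ⟨G, i1, i2, H, ⟨e⟩⟩ := h
  have hAB : (e a).1 ≤ (e b).1 := e.monotone hab
  refine ⟨(e b).1, inferInstance, inferInstance, (e a).1.subgroupOf (e b).1, ⟨?_⟩⟩
  exact
    { toFun := fun x => ⟨(e x.1).1.subgroupOf (e b).1, by
        intro g hg
        have h1 : (e a).1 ≤ (e x.1).1 := e.monotone x.2.1
        exact h1 hg⟩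
      invFun := fun T => ⟨e.symm ⟨T.1.map (e b).1.subtype, by
          intro g hg
          have hg' : g ∈ (e a).1 := (e a).2 hg
          exact ⟨⟨g, hAB hg'⟩, T.2 hg', rfl⟩⟩, by
        constructor
        · rw [OrderIso.le_symm_apply]
          intro g hg
          exact ⟨⟨g, hAB hg⟩, T.2 hg, rfl⟩
        · rw [OrderIso.symm_apply_le]
          rintro _ ⟨g, hg, rfl⟩
          exact g.2⟩
      left_inv := by
        intro x
        apply Subtype.ext
        show e.symm _ = x.1
        rw [OrderIso.symm_apply_eq]
        apply Subtype.ext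
        ext g
        constructor
        · rintro ⟨g', hg', rfl⟩
          exact hg'
        · intro hg
          have h1 : (e x.1).1 ≤ (e b).1 := e.monotone x.2.2
          exact ⟨⟨g, h1 hg⟩, hg, rfl⟩
      right_inv := by
        intro T
        apply Subtype.ext
        show (e (e.symm _)).1.subgroupOf (e b).1 = T.1
        rw [OrderIso.apply_symm_apply]
        ext g
        constructor
        · rintro ⟨g', hg', hgg⟩
          have : g' = g := Subtype.ext hgg
          rwa [← this]
        · intro hg
          exact ⟨g, hg, rfl⟩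
      map_rel_iff' := by
        intro x y
        constructor
        · intro hxy
          show x.1 ≤ y.1
          rw [← e.le_iff_le]
          intro g hg
          have h1 : (e x.1).1 ≤ (e b).1 := e.monotone x.2.2
          exact hxy (x := ⟨g, h1 hg⟩) hg
        · intro hxy g hg
          have h1 : (e x.1).1 ≤ (e y.1).1 := e.monotone hxy
          exact h1 hg }

/-- Nets of ideals of the commutative ring `R`, indexed by pairs of elements of `X`. -/
abbrev Net (X R : Type) [CommRing R] : Type :=
  {s : X → X → Ideal R // (∀ x, s x x = ⊤) ∧ ∀ x y z, s x y * s y z ≤ s x z}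

/-- The preorders on `X` (as relations). -/
abbrev PreordersOn (X : Type) : Type :=
  {r : X → X → Prop // (∀ x, r x x) ∧ ∀ x y z, r x y → r y z → r x z}

/-- The functions `d : X × X → {0, ..., k}` with `d(x,x) = 0` and the triangle inequality. -/
abbrev DistancesOn (X : Type) (k : ℕ) : Type :=
  {d : X → X → Fin (k + 1) // (∀ x, d x x = 0) ∧ ∀ x y z, (d x z : ℕ) ≤ d x y + d y z}

/-- Over a field, nets are preorders. -/
noncomputable def netField (X K : Type) [Field K] : PreordersOn X ≃o Net X K := by
  classical
  exact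
  { toFun := fun r => ⟨fun x y => if r.1 x y then ⊤ else ⊥, fun x => by simp [r.2.1 x],
      fun x y z => by
        by_cases h1 : r.1 x y
        · by_cases h2 : r.1 y z
          · simp [h1, h2, r.2.2 x y z h1 h2]
          · simp [h2]
        · simp [h1]⟩
    invFun := fun s => ⟨fun x y => s.1 x y = ⊤, s.2.1, fun x y z h1 h2 => by
      have h := s.2.2 x y z
      rw [h1, h2, Ideal.top_mul] at h
      exact top_le_iff.1 h⟩
    left_inv := by
      intro r
      apply Subtype.ext
      funext x y
      show ((if r.1 x y then (⊤ : Ideal K) else ⊥) = ⊤) = r.1 x y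
      by_cases h : r.1 x y
      · simp [h]
      · simp [h]
    right_inv := by
      intro s
      apply Subtype.ext
      funext x y
      show (if s.1 x y = ⊤ then (⊤ : Ideal K) else ⊥) = s.1 x y
      rcases Ideal.eq_bot_or_top (s.1 x y) with h | h
      · rw [h]; simp
      · rw [h]; simp
    map_rel_iff' := by
      intro r t
      constructor
      · intro h x y hr
        have h1 : (if r.1 x y then (⊤ : Ideal K) else ⊥) ≤ (if t.1 x y then (⊤ : Ideal K) else ⊥) :=
          h x y
        rw [if_pos hr] at h1
        by_contra ht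
        rw [if_neg ht] at h1
        exact bot_ne_top (α := Ideal K) (le_bot_iff.1 h1).symm
      · intro h x y
        show (if r.1 x y then (⊤ : Ideal K) else ⊥) ≤ (if t.1 x y then (⊤ : Ideal K) else ⊥)
        by_cases hr : r.1 x y
        · rw [if_pos hr, if_pos (h x y hr)]
        · rw [if_neg hr]; exact bot_le }

section zmod

variable (p k : ℕ) [hp : Fact p.Prime]

/-- the ideal `(p^j)` -/
def pw (j : ℕ) : Ideal (ZMod (p ^ k)) := Ideal.span {(p : ZMod (p ^ k)) ^ j}

variable {p k}

theorem pw_zero : pw p k 0 = ⊤ := by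
  unfold pw
  rw [pow_zero]
  exact Ideal.span_singleton_one

theorem p_pow_k : (p : ZMod (p ^ k)) ^ k = 0 := by
  have : ((p ^ k : ℕ) : ZMod (p ^ k)) = 0 := ZMod.natCast_self _
  push_cast at this
  exact this

theorem pw_anti {i j : ℕ} (h : i ≤ j) : pw p k j ≤ pw p k i := by
  unfold pw
  rw [Ideal.span_singleton_le_span_singleton]
  exact pow_dvd_pow _ h

theorem pw_le_iff {i j : ℕ} (hi : i ≤ k) : pw p k j ≤ pw p k i ↔ i ≤ j := by
  constructor
  · intro h
    by_contra hlt
    push Not at hlt
    unfold pw at h
    rw [Ideal.span_singleton_le_span_singleton] at h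
    obtain ⟨c, hc⟩ := h
    have hpos : 0 < p ^ k := pow_pos hp.out.pos _
    haveI : NeZero (p ^ k) := ⟨hpos.ne'⟩
    have h1 : ((p ^ j : ℕ) : ZMod (p ^ k)) = ((p ^ i * c.val : ℕ) : ZMod (p ^ k)) := by
      push_cast
      rw [ZMod.natCast_zmod_val]
      exact hc
    rw [ZMod.natCast_eq_natCast_iff] at h1
    have h2 : p ^ j ≡ p ^ i * c.val [MOD p ^ (j + 1)] :=
      h1.of_dvd (pow_dvd_pow p (by omega))
    have h3 : p ^ (j + 1) ∣ p ^ i * c.val := (pow_dvd_pow p (by omega)).mul_right _
    have h4 : p ^ (j + 1) ∣ p ^ j := (Nat.ModEq.dvd_iff h2 (dvd_refl _)).2 h3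
    have h5 := (Nat.pow_dvd_pow_iff_le_right hp.out.one_lt).1 h4
    omega
  · exact pw_anti

theorem pw_mul (i j : ℕ) : pw p k i * pw p k j = pw p k (i + j) := by
  unfold pw
  rw [Ideal.span_singleton_mul_span_singleton, pow_add]

/-- every element is a power of `p` times a unit -/
theorem eq_pow_mul_unit (x : ZMod (p ^ k)) :
    ∃ i, i ≤ k ∧ ∃ u : (ZMod (p ^ k))ˣ, x = (p : ZMod (p ^ k)) ^ i * u := by
  have hpos : 0 < p ^ k := pow_pos hp.out.pos _
  haveI : NeZero (p ^ k) := ⟨hpos.ne'⟩
  by_cases hx : x = 0
  · exact ⟨k, le_rfl, 1, by rw [p_pow_k, hx]; simp⟩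
  · have hv : x.val ≠ 0 := by
      intro h
      exact hx ((ZMod.val_eq_zero x).1 h)
    obtain ⟨i, m, hm, hxm⟩ := Nat.exists_eq_pow_mul_and_not_dvd hv p hp.out.ne_one
    have hx' : x = ((p ^ i * m : ℕ) : ZMod (p ^ k)) := by
      rw [← hxm, ZMod.natCast_zmod_val]
    have hik : i ≤ k := by
      by_contra hlt
      push Not at hlt
      apply hx
      rw [hx', ZMod.natCast_eq_zero_iff]
      exact (pow_dvd_pow p hlt.le).mul_right _
    have hcop : Nat.Coprime m (p ^ k) :=
      Nat.Coprime.pow_right _ ((Nat.Prime.coprime_iff_not_dvd hp.out).2 hm).symm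
    refine ⟨i, hik, ZMod.unitOfCoprime m hcop, ?_⟩
    rw [hx']
    push_cast
    simp

theorem ideal_eq_pw (I : Ideal (ZMod (p ^ k))) : ∃ j, j ≤ k ∧ I = pw p k j := by
  classical
  have hex : ∃ j, (p : ZMod (p ^ k)) ^ j ∈ I := ⟨k, by rw [p_pow_k]; exact I.zero_mem⟩
  refine ⟨Nat.find hex, Nat.find_min' hex (by rw [p_pow_k]; exact I.zero_mem), ?_⟩
  apply le_antisymm
  · intro x hx
    obtain ⟨i, hi, u, rfl⟩ := eq_pow_mul_unit x
    have h1 : (p : ZMod (p ^ k)) ^ i ∈ I := by
      have h2 := I.mul_mem_right (↑u⁻¹ : ZMod (p ^ k)) hx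
      rwa [mul_assoc, Units.mul_inv, mul_one] at h2
    have h2 := Nat.find_min' hex h1
    have h3 : (p : ZMod (p ^ k)) ^ i ∈ pw p k (Nat.find hex) :=
      pw_anti h2 (Ideal.mem_span_singleton_self _)
    exact Ideal.mul_mem_right _ _ h3
  · unfold pw
    rw [Ideal.span_singleton_le_iff_mem]
    exact Nat.find_spec hex

/-- Over `Z/p^k`, nets are distance functions with values in `{0, ..., k}`, in the reverse order. -/
noncomputable def netZMod (X : Type) : (DistancesOn X k)ᵒᵈ ≃o Net X (ZMod (p ^ k)) := by
  classical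
  choose v hv hI using fun I : Ideal (ZMod (p ^ k)) => ideal_eq_pw (p := p) (k := k) I
  have hvp : ∀ j, j ≤ k → v (pw p k j) = j := by
    intro j hj
    apply le_antisymm
    · have := (hI (pw p k j)).le
      exact (pw_le_iff (hv _)).1 this
    · have := (hI (pw p k j)).ge
      exact (pw_le_iff hj).1 this
  exact
  { toFun := fun d => ⟨fun x y => pw p k ((OrderDual.ofDual d).1 x y),
      fun x => by
        show pw p k ((OrderDual.ofDual d).1 x x : Fin (k + 1)) = ⊤
        rw [(OrderDual.ofDual d).2.1 x]
        exact pw_zero,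
      fun x y z => by
        show pw p k _ * pw p k _ ≤ pw p k _
        rw [pw_mul]
        exact pw_anti ((OrderDual.ofDual d).2.2 x y z)⟩
    invFun := fun s => OrderDual.toDual ⟨fun x y => ⟨v (s.1 x y), Nat.lt_succ_of_le (hv _)⟩,
      fun x => by
        apply Fin.ext
        show v (s.1 x x) = 0
        rw [s.2.1 x, ← pw_zero (p := p) (k := k)]
        exact hvp 0 (Nat.zero_le _),
      fun x y z => by
        show v (s.1 x z) ≤ v (s.1 x y) + v (s.1 y z)
        have h := s.2.2 x y z
        rw [hI (s.1 x y), hI (s.1 y z), hI (s.1 x z), pw_mul] at h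
        exact (pw_le_iff (hv _)).1 h⟩
    left_inv := by
      intro d
      apply congrArg OrderDual.toDual
      apply Subtype.ext
      funext x y
      apply Fin.ext
      exact hvp _ (Nat.le_of_lt_succ ((OrderDual.ofDual d).1 x y).2)
    right_inv := by
      intro s
      apply Subtype.ext
      funext x y
      exact (hI (s.1 x y)).symm
    map_rel_iff' := by
      intro d t
      constructor
      · intro h
        show ∀ x y, (OrderDual.ofDual t).1 x y ≤ (OrderDual.ofDual d).1 x y
        intro x y
        have h1 : pw p k ((OrderDual.ofDual d).1 x y) ≤ pw p k ((OrderDual.ofDual t).1 x y) := h x y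
        exact (pw_le_iff (Nat.le_of_lt_succ ((OrderDual.ofDual t).1 x y).2)).1 h1
      · intro h x y
        exact pw_anti (h x y) }

end zmod

end Vale.Agent.P183.H21
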