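import Vale.Agent.P183.H21.Cor
import Mathlib.Data.Matrix.Basis
import Mathlib.Algebra.Ring.Subring.Basic

/-!
The subrings of the matrix ring `M_X(R)` that contain the diagonal matrices are the nets of ideals
(helper21, corollaries for `P183.MatrixSubrings`).
-/

set_option linter.all false

namespace Vale.Agent.P183.H21

variable (X R : Type) [Fintype X] [DecidableEq X] [CommRing R]

/-- The subrings of `M_X(R)` which contain all the diagonal matrices. -/
abbrev DiagSubrings : Type :=
  {S : Subring (Matrix X X R) // ∀ d : X → R, Matrix.diagonal d ∈ S}

variable {X R}

theorem single_mem_of_mem {S : Subring (Matrix X X R)} (hS : ∀ d : X → R, Matrix.diagonal d ∈ S)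
    {A : Matrix X X R} (hA : A ∈ S) (x y : X) : Matrix.single x y (A x y) ∈ S := by
  have h1 := S.mul_mem (S.mul_mem (hS (Pi.single x 1)) hA) (hS (Pi.single y 1))
  convert h1 using 1
  ext i j
  rw [Matrix.mul_diagonal, Matrix.diagonal_mul]
  by_cases hi : i = x
  · by_cases hj : j = y
    · subst hi hj; simp
    · subst hi
      simp [Matrix.single, hj, Ne.symm hj, Pi.single_eq_of_ne hj]
  · simp [Matrix.single, hi, Ne.symm hi, Pi.single_eq_of_ne hi]

/-- subrings containing the diagonal matrices = nets of ideals -/
noncomputable def netSubring : DiagSubrings X R ≃o Net X R where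
  toFun S := ⟨fun x y =>
      { carrier := {r | Matrix.single x y r ∈ S.1}
        add_mem' := by
          intro a b ha hb
          show Matrix.single x y (a + b) ∈ S.1
          rw [Matrix.single_add]
          exact S.1.add_mem ha hb
        zero_mem' := by
          show Matrix.single x y (0 : R) ∈ S.1
          rw [Matrix.single_zero]
          exact S.1.zero_mem
        smul_mem' := by
          intro c r hr
          show Matrix.single x y (c • r) ∈ S.1
          have h1 := S.1.mul_mem (S.2 fun _ => c) hr
          have h2 : Matrix.diagonal (fun _ : X => c) * Matrix.single x y r =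
              Matrix.single x y (c • r) := by
            ext i j
            rw [Matrix.diagonal_mul]
            by_cases h : x = i ∧ y = j
            · obtain ⟨rfl, rfl⟩ := h
              simp
            · rw [Matrix.single_apply, Matrix.single_apply, if_neg h, if_neg h, mul_zero]
          rwa [h2] at h1 },
      fun x => by
        rw [Ideal.eq_top_iff_one]
        show Matrix.single x x (1 : R) ∈ S.1
        have h1 := S.2 (Pi.single x 1)
        rwa [Matrix.diagonal_single] at h1,
      fun x y z => by
        rw [Ideal.mul_le]
        intro r hr t ht
        show Matrix.single x z (r * t) ∈ S.1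
        have h1 := S.1.mul_mem (show Matrix.single x y r ∈ S.1 from hr)
          (show Matrix.single y z t ∈ S.1 from ht)
        rwa [Matrix.single_mul_single_same] at h1⟩
  invFun s := ⟨
      { carrier := {A | ∀ x y, A x y ∈ s.1 x y}
        mul_mem' := by
          intro A B hA hB x z
          rw [Matrix.mul_apply]
          exact Submodule.sum_mem _ fun y _ => s.2.2 x y z (Ideal.mul_mem_mul (hA x y) (hB y z))
        one_mem' := by
          intro x y
          by_cases h : x = y
          · subst h; rw [s.2.1 x]; trivial
          · rw [Matrix.one_apply_ne h]; exact Ideal.zero_mem _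
        add_mem' := fun hA hB x y => Ideal.add_mem _ (hA x y) (hB x y)
        zero_mem' := fun x y => Ideal.zero_mem _
        neg_mem' := fun hA x y => (Ideal.neg_mem_iff _).2 (hA x y) },
      fun d x y => by
        by_cases h : x = y
        · subst h; rw [s.2.1 x]; trivial
        · rw [Matrix.diagonal_apply_ne _ h]; exact Ideal.zero_mem _⟩
  left_inv S := by
    apply Subtype.ext
    ext A
    constructor
    · intro hA
      rw [Matrix.matrix_eq_sum_single A]
      exact S.1.sum_mem fun i _ => S.1.sum_mem fun j _ => hA i j
    · intro hA x y
      exact single_mem_of_mem S.2 hA x y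
  right_inv s := by
    apply Subtype.ext
    funext x y
    ext r
    constructor
    · intro h
      have h1 : Matrix.single x y r x y ∈ s.1 x y := h x y
      rwa [Matrix.single_apply_same] at h1
    · intro hr i j
      by_cases h : x = i ∧ y = j
      · obtain ⟨rfl, rfl⟩ := h
        rwa [Matrix.single_apply_same]
      · rw [Matrix.single_apply, if_neg h]
        exact Ideal.zero_mem _
  map_rel_iff' := by
    intro S T
    constructor
    · intro h A hA
      show A ∈ T.1
      rw [Matrix.matrix_eq_sum_single A]
      exact T.1.sum_mem fun i _ => T.1.sum_mem fun j _ => h i j (single_mem_of_mem S.2 hA i j)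
    · intro h x y r hr
      exact h hr

end Vale.Agent.P183.H21
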